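import Mathlib
import Vale.Agent.P030.AnMain
import Vale.Agent.P030.Arith

theorem Vale.Agent.Results.P030.Irrational.result :
    Irrational (∑' j : ℕ, (-1 : ℝ) ^ j / (2 * (j : ℝ) + 1) ^ 2) := by
  by_contra hG
  obtain ⟨N, hN, h1, h2, h3⟩ := ((Vale.Agent.P030.arith_nonzero hG).and_eventually
    ((Vale.Agent.P030.arith_lower hG).and
      (Vale.Agent.P030.real_upper.and (Filter.eventually_ge_atTop 1)))).exists
  have h4 := Real.exp_le_exp.1 ((h1 hN).trans h2)
  have h5 : (1 : ℝ) ≤ N := by exact_mod_cast h3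
  nlinarith
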